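import Vale.Agent.P062.A.Tbl

namespace Vale.Agent.P062.A

theorem ok11 : t11.all (check tbl) = true := by decide +kernel

end Vale.Agent.P062.A
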