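import Vale.Agent.P062.A.K0
import Vale.Agent.P062.A.K1
import Vale.Agent.P062.A.K2
import Vale.Agent.P062.A.K3
import Vale.Agent.P062.A.K4
import Vale.Agent.P062.A.K5
import Vale.Agent.P062.A.K6
import Vale.Agent.P062.A.K7
import Vale.Agent.P062.A.K8
import Vale.Agent.P062.A.K9
import Vale.Agent.P062.A.K10
import Vale.Agent.P062.A.K11
import Vale.Agent.P062.A.K12
import Vale.Agent.P062.A.K13
import Vale.Agent.P062.A.K14
import Vale.Agent.P062.A.K15

namespace Vale.Agent.P062.A

theorem ok : tbl.all (check tbl) = true :=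
(Tr.all_node (Tr.all_node (Tr.all_node (Tr.all_node ok0 ok1) (Tr.all_node ok2 ok3)) (Tr.all_node (Tr.all_node ok4 ok5) (Tr.all_node ok6 ok7))) (Tr.all_node (Tr.all_node (Tr.all_node ok8 ok9) (Tr.all_node ok10 ok11)) (Tr.all_node (Tr.all_node ok12 ok13) (Tr.all_node ok14 ok15))))

theorem win : W 21 ∅ ∅ := W_of_check ok (i := 65535) (by decide +kernel)

end Vale.Agent.P062.A
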