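import Vale.Agent.P062.A.D0
import Vale.Agent.P062.A.D1
import Vale.Agent.P062.A.D2
import Vale.Agent.P062.A.D3
import Vale.Agent.P062.A.D4
import Vale.Agent.P062.A.D5
import Vale.Agent.P062.A.D6
import Vale.Agent.P062.A.D7
import Vale.Agent.P062.A.D8
import Vale.Agent.P062.A.D9
import Vale.Agent.P062.A.D10
import Vale.Agent.P062.A.D11
import Vale.Agent.P062.A.D12
import Vale.Agent.P062.A.D13
import Vale.Agent.P062.A.D14
import Vale.Agent.P062.A.D15

namespace Vale.Agent.P062.A

noncomputable def tbl : Tr :=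
(.node (.node (.node (.node t0 t1) (.node t2 t3)) (.node (.node t4 t5) (.node t6 t7))) (.node (.node (.node t8 t9) (.node t10 t11)) (.node (.node t12 t13) (.node t14 t15))))

end Vale.Agent.P062.A
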